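import Mathlib

/-!
P243, general convex bodies (helper15's proof, thread P243 #2415): STEP 3 of LEMMA S.

`exists_support_of_line`: a line missing the interior of a convex set with nonempty interior gives a
unit vector `ξ` orthogonal to the line with `⟪ξ, y - p⟫ ≤ 0` on the set (Hahn-Banach).

`sharp_of_two_slopes`: `K` convex between `closedBall c ρ` and `closedBall c R`, a point `e ∈ K`,
an orthonormal pair `w, u`, and two upper bounds `z ≤ η + a t`, `z ≤ η + (a + D) t` for all points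
`e + t w + z u` of `K`, where the plane `e + span {w, u}` passes within `ρ / 2` of `c`.  Then `e`
lies in two caps of height `η` whose unit normals `ξ1, ξ2` satisfy
the square of `ρ D / (2 (R + η) (1 + |a|) (1 + |a + D|))` is at most `1 - ⟪ξ1, ξ2⟫^2`.
-/

open Set Metric

namespace Vale.Agent.H7.GenK

variable {E : Type*} [NormedAddCommGroup E] [InnerProductSpace ℝ E] [CompleteSpace E]

/-- Hahn-Banach for a line missing the interior of a convex set. -/
theorem exists_support_of_line (K : Set E) (hKconv : Convex ℝ K) (hint : (interior K).Nonempty)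
    (p d : E) (hdis : ∀ t : ℝ, p + t • d ∉ interior K) :
    ∃ ξ : E, ‖ξ‖ = 1 ∧ inner ℝ ξ d = 0 ∧ ∀ y ∈ K, inner ℝ ξ (y - p) ≤ 0 := by
  have hline : Convex ℝ (Set.range (fun t : ℝ => p + t • d)) := by
    rintro _ ⟨t1, rfl⟩ _ ⟨t2, rfl⟩ a b _ _ hab
    refine ⟨a * t1 + b * t2, ?_⟩
    show p + (a * t1 + b * t2) • d = a • (p + t1 • d) + b • (p + t2 • d)
    have hp : a • p + b • p = p := by rw [← add_smul, hab, one_smul]
    calc p + (a * t1 + b * t2) • d = (a • p + b • p) + (a * t1 + b * t2) • d := by rw [hp]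
      _ = a • (p + t1 • d) + b • (p + t2 • d) := by
          rw [smul_add, smul_add, smul_smul, smul_smul, add_smul]
          abel
  have hdisj : Disjoint (interior K) (Set.range (fun t : ℝ => p + t • d)) := by
    rw [Set.disjoint_left]
    rintro x hx ⟨t, rfl⟩
    exact hdis t hx
  obtain ⟨f, u0, hf1, hf2⟩ :=
    geometric_hahn_banach_open hKconv.interior isOpen_interior hline hdisj
  have hfd : f d = 0 := by
    by_contra hne
    have h := hf2 (p + ((u0 - 1 - f p) / f d) • d) ⟨_, rfl⟩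
    rw [map_add, map_smul, smul_eq_mul, div_mul_cancel₀ _ hne] at h
    linarith
  have hfp : u0 ≤ f p := by
    have h := hf2 (p + (0 : ℝ) • d) ⟨0, rfl⟩
    rwa [zero_smul, add_zero] at h
  obtain ⟨a0, ha0⟩ := hint
  have hfa0 : f a0 < f p := lt_of_lt_of_le (hf1 a0 ha0) hfp
  set ξ0 : E := (InnerProductSpace.toDual ℝ E).symm f with hξ0
  have hin : ∀ x : E, inner ℝ ξ0 x = f x := fun x => InnerProductSpace.toDual_symm_apply
  have hξ0ne : ξ0 ≠ 0 := by
    intro h0
    have h1 := hin a0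
    have h2 := hin p
    rw [h0, inner_zero_left] at h1 h2
    linarith
  have hnpos : 0 < ‖ξ0‖ := norm_pos_iff.mpr hξ0ne
  have hle : ∀ y ∈ K, f y ≤ f p := by
    intro y hy
    have hcl : closure (interior K) = closure K :=
      hKconv.closure_interior_eq_closure_of_nonempty_interior ⟨a0, ha0⟩
    have hy' : y ∈ closure (interior K) := by
      rw [hcl]
      exact subset_closure hy
    have hclosed : IsClosed {y : E | f y ≤ f p} := isClosed_le f.continuous continuous_const
    have hsub : interior K ⊆ {y : E | f y ≤ f p} := fun z hz => (lt_of_lt_of_le (hf1 z hz) hfp).le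
    exact closure_minimal hsub hclosed hy'
  refine ⟨‖ξ0‖⁻¹ • ξ0, ?_, ?_, ?_⟩
  · rw [norm_smul, norm_inv, norm_norm, inv_mul_cancel₀ hnpos.ne']
  · rw [inner_smul_left, hin, hfd]
    simp
  · intro y hy
    rw [inner_smul_left, hin, map_sub]
    have := hle y hy
    have h3 : 0 ≤ ‖ξ0‖⁻¹ := inv_nonneg.mpr hnpos.le
    simp only [conj_trivial]
    exact mul_nonpos_of_nonneg_of_nonpos h3 (by linarith)

omit [CompleteSpace E] in
/-- the residual of `x` against an orthonormal pair is the shortest vector `x - t w - z u`. -/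
theorem residual_le (x w u : E) (hw : ‖w‖ = 1) (hu : ‖u‖ = 1) (hwu : inner ℝ w u = 0)
    (t1 z1 : ℝ) :
    ‖x - inner ℝ x w • w - inner ℝ x u • u‖ ≤ ‖x - (t1 • w + z1 • u)‖ := by
  set r : E := x - inner ℝ x w • w - inner ℝ x u • u with hr
  have hww : inner ℝ w w = 1 := by rw [real_inner_self_eq_norm_sq, hw]; norm_num
  have huu : inner ℝ u u = 1 := by rw [real_inner_self_eq_norm_sq, hu]; norm_num
  have huw : inner ℝ u w = 0 := by rw [real_inner_comm]; exact hwu
  have hrw : inner ℝ r w = 0 := by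
    rw [hr, inner_sub_left, inner_sub_left, inner_smul_left, inner_smul_left, hww, huw]
    simp
  have hru : inner ℝ r u = 0 := by
    rw [hr, inner_sub_left, inner_sub_left, inner_smul_left, inner_smul_left, huu, hwu]
    simp
  set α : ℝ := inner ℝ x w - t1 with hα
  set β : ℝ := inner ℝ x u - z1 with hβ
  have hx : x - (t1 • w + z1 • u) = r + (α • w + β • u) := by
    rw [hr, hα, hβ, sub_smul, sub_smul]
    abel
  have hrq : inner ℝ r (α • w + β • u) = 0 := by
    rw [inner_add_right, inner_smul_right, inner_smul_right, hrw, hru]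
    simp
  have hsq : ‖x - (t1 • w + z1 • u)‖ ^ 2 = ‖r‖ ^ 2 + ‖α • w + β • u‖ ^ 2 := by
    rw [hx, norm_add_sq_real, hrq]
    ring
  have h1 : ‖r‖ ^ 2 ≤ ‖x - (t1 • w + z1 • u)‖ ^ 2 := by
    rw [hsq]
    nlinarith [sq_nonneg ‖α • w + β • u‖]
  by_contra hcon
  rw [not_le] at hcon
  nlinarith [norm_nonneg (x - (t1 • w + z1 • u)), norm_nonneg r]

omit [CompleteSpace E] in
/-- a line above the two-slope bound misses the interior. -/
theorem line_misses_interior (K : Set E) (e w u : E) (hu : ‖u‖ = 1) (η σ : ℝ)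
    (h : ∀ t z : ℝ, e + t • w + z • u ∈ K → z ≤ η + σ * t) (t : ℝ) :
    (e + η • u) + t • (w + σ • u) ∉ interior K := by
  intro hx
  rw [mem_interior_iff_mem_nhds, Metric.mem_nhds_iff] at hx
  obtain ⟨ε, hε, hball⟩ := hx
  have hmem : (e + η • u) + t • (w + σ • u) + (ε / 2) • u ∈ K := by
    apply hball
    rw [mem_ball, dist_eq_norm, add_sub_cancel_left, norm_smul, hu, mul_one, Real.norm_eq_abs,
      abs_of_pos (by linarith)]
    linarith
  have e1 : (e + η • u) + t • (w + σ • u) + (ε / 2) • u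
      = e + t • w + (η + σ * t + ε / 2) • u := by
    rw [smul_add, smul_smul, add_smul, add_smul, mul_comm σ t]
    abel
  rw [e1] at hmem
  have := h t _ hmem
  linarith

omit [CompleteSpace E] in
/-- cap height and the lower bound on the `u`-component of a support normal. -/
theorem support_normal_bounds (K : Set E) (c : E) (ρ R : ℝ)
    (hin : closedBall c ρ ⊆ K) (hout : K ⊆ closedBall c R) (hρ : 0 ≤ ρ)
    (e w u : E) (he : e ∈ K) (hw : ‖w‖ = 1) (hu : ‖u‖ = 1) (hwu : inner ℝ w u = 0)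
    (η σ : ℝ) (hη : 0 ≤ η)
    (hc : ∃ t1 z1 : ℝ, ‖c - (e + t1 • w + z1 • u)‖ ≤ ρ / 2)
    (ξ : E) (hξ : ‖ξ‖ = 1) (hξd : inner ℝ ξ (w + σ • u) = 0)
    (hξK : ∀ y ∈ K, inner ℝ ξ (y - (e + η • u)) ≤ 0) :
    (∀ y ∈ K, inner ℝ ξ (y - e) ≤ η) ∧
      ρ / 2 ≤ |inner ℝ ξ u| * ((R + η) * (1 + |σ|)) := by
  have hY1 : inner ℝ ξ u ≤ 1 := by
    have := real_inner_le_norm ξ u
    rw [hξ, hu] at this
    linarith
  have hYabs : |inner ℝ ξ u| ≤ 1 := by
    have := abs_real_inner_le_norm ξ u
    rw [hξ, hu] at this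
    linarith
  constructor
  · intro y hy
    have h := hξK y hy
    have e1 : y - e = (y - (e + η • u)) + η • u := by abel
    rw [e1, inner_add_right, inner_smul_right]
    nlinarith
  · -- the point c + ρ ξ of K
    have hy0 : c + ρ • ξ ∈ K := by
      apply hin
      rw [mem_closedBall, dist_eq_norm, add_sub_cancel_left, norm_smul, hξ, mul_one,
        Real.norm_eq_abs, abs_of_nonneg hρ]
    have h := hξK _ hy0
    set x : E := c - e with hx
    set t0 : ℝ := inner ℝ x w with ht0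
    set z0 : ℝ := inner ℝ x u with hz0
    set r : E := x - t0 • w - z0 • u with hr
    obtain ⟨t1, z1, hc1⟩ := hc
    have hrle : ‖r‖ ≤ ρ / 2 := by
      have h1 := residual_le x w u hw hu hwu t1 z1
      have e2 : x - (t1 • w + z1 • u) = c - (e + t1 • w + z1 • u) := by
        rw [hx]
        abel
      rw [e2] at h1
      exact le_trans h1 hc1
    have hξr : -(ρ / 2) ≤ inner ℝ ξ r := by
      have := abs_real_inner_le_norm ξ r
      rw [hξ, one_mul] at this
      have := (abs_le.mp this).1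
      linarith
    have hxn : ‖x‖ ≤ R := by
      have := hout he
      rw [mem_closedBall, dist_eq_norm] at this
      rw [hx, ← norm_neg]
      simpa using this
    have ht0b : |t0| ≤ R := by
      have := abs_real_inner_le_norm x w
      rw [hw, mul_one] at this
      exact le_trans this hxn
    have hz0b : |z0| ≤ R := by
      have := abs_real_inner_le_norm x u
      rw [hu, mul_one] at this
      exact le_trans this hxn
    set X : ℝ := inner ℝ ξ w with hX
    set Y : ℝ := inner ℝ ξ u with hY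
    have hXY : X = -(σ * Y) := by
      rw [inner_add_right, inner_smul_right] at hξd
      linarith
    have hξξ : inner ℝ ξ ξ = 1 := by rw [real_inner_self_eq_norm_sq, hξ]; norm_num
    have e3 : c + ρ • ξ - (e + η • u) = r + t0 • w + z0 • u + ρ • ξ - η • u := by
      rw [hr, hx]
      abel
    rw [e3, inner_sub_right, inner_add_right, inner_add_right, inner_add_right,
      inner_smul_right, inner_smul_right, inner_smul_right, inner_smul_right, hξξ] at h
    -- h : ⟪ξ, r⟫ + t0 * X + z0 * Y + ρ * 1 - η * Y ≤ 0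
    have h5 : ρ / 2 ≤ Y * (η - z0 + σ * t0) := by
      rw [← hX, ← hY, hXY] at h
      nlinarith
    have h6 : Y * (η - z0 + σ * t0) ≤ |Y| * ((R + η) * (1 + |σ|)) := by
      have hb : |η - z0 + σ * t0| ≤ (R + η) * (1 + |σ|) := by
        have h7 : |η - z0 + σ * t0| ≤ |η - z0| + |σ * t0| := abs_add_le _ _
        have h8 : |η - z0| ≤ η + R := by
          have := abs_sub η z0
          rw [abs_of_nonneg hη] at this
          linarith
        have h9 : |σ * t0| ≤ |σ| * R := by
          rw [abs_mul]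
          exact mul_le_mul_of_nonneg_left ht0b (abs_nonneg σ)
        have h10 : 0 ≤ |σ| * η := mul_nonneg (abs_nonneg σ) hη
        nlinarith
      calc Y * (η - z0 + σ * t0) ≤ |Y * (η - z0 + σ * t0)| := le_abs_self _
        _ = |Y| * |η - z0 + σ * t0| := abs_mul _ _
        _ ≤ |Y| * ((R + η) * (1 + |σ|)) := mul_le_mul_of_nonneg_left hb (abs_nonneg Y)
    linarith

/-- **STEP 3.** Two slopes in a plane section give a sharp point. -/
theorem sharp_of_two_slopes (K : Set E) (hKconv : Convex ℝ K) (c : E) (ρ R : ℝ) (hρ : 0 < ρ)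
    (hin : closedBall c ρ ⊆ K) (hout : K ⊆ closedBall c R)
    (e w u : E) (he : e ∈ K) (hw : ‖w‖ = 1) (hu : ‖u‖ = 1) (hwu : inner ℝ w u = 0)
    (η a D : ℝ) (hη : 0 ≤ η) (hD : 0 < D)
    (hc : ∃ t1 z1 : ℝ, ‖c - (e + t1 • w + z1 • u)‖ ≤ ρ / 2)
    (h1 : ∀ t z : ℝ, e + t • w + z • u ∈ K → z ≤ η + a * t)
    (h2 : ∀ t z : ℝ, e + t • w + z • u ∈ K → z ≤ η + (a + D) * t) :
    ∃ ξ1 ξ2 : E, ‖ξ1‖ = 1 ∧ ‖ξ2‖ = 1 ∧ (∀ y ∈ K, inner ℝ ξ1 (y - e) ≤ η) ∧
      (∀ y ∈ K, inner ℝ ξ2 (y - e) ≤ η) ∧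
      (ρ * D / (2 * (R + η) * (1 + |a|) * (1 + |a + D|))) ^ 2 ≤ 1 - (inner ℝ ξ1 ξ2) ^ 2 := by
  have hint : (interior K).Nonempty :=
    ⟨c, mem_interior.mpr ⟨ball c ρ, fun y hy => hin (ball_subset_closedBall hy), isOpen_ball,
      mem_ball_self hρ⟩⟩
  obtain ⟨ξ1, hξ1, hξ1d, hξ1K⟩ := exists_support_of_line K hKconv hint (e + η • u) (w + a • u)
    (line_misses_interior K e w u hu η a h1)
  obtain ⟨ξ2, hξ2, hξ2d, hξ2K⟩ := exists_support_of_line K hKconv hint (e + η • u)
    (w + (a + D) • u) (line_misses_interior K e w u hu η (a + D) h2)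
  obtain ⟨hcap1, hY1⟩ := support_normal_bounds K c ρ R hin hout hρ.le e w u he hw hu hwu η a hη hc
    ξ1 hξ1 hξ1d hξ1K
  obtain ⟨hcap2, -⟩ := support_normal_bounds K c ρ R hin hout hρ.le e w u he hw hu hwu η (a + D)
    hη hc ξ2 hξ2 hξ2d hξ2K
  refine ⟨ξ1, ξ2, hξ1, hξ2, hcap1, hcap2, ?_⟩
  set t : ℝ := inner ℝ ξ1 ξ2 with ht
  set v : E := ξ1 - t • ξ2 with hv
  set Y : ℝ := inner ℝ ξ1 u with hY
  have hξ22 : inner ℝ ξ2 ξ2 = 1 := by rw [real_inner_self_eq_norm_sq, hξ2]; norm_num
  have hvsq : ‖v‖ ^ 2 = 1 - t ^ 2 := by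
    rw [hv, norm_sub_sq_real, hξ1, norm_smul, hξ2, inner_smul_right, ← ht, Real.norm_eq_abs,
      mul_one, sq_abs]
    ring
  have hvd : inner ℝ v (w + (a + D) • u) = D * Y := by
    have e1 : w + (a + D) • u = (w + a • u) + D • u := by rw [add_smul]; abel
    have e2 : inner ℝ ξ1 (w + (a + D) • u) = D * Y := by
      rw [e1, inner_add_right, hξ1d, inner_smul_right, zero_add]
    rw [hv, inner_sub_left, inner_smul_left, hξ2d, e2]
    simp
  have hdn : ‖w + (a + D) • u‖ ≤ 1 + |a + D| := by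
    calc ‖w + (a + D) • u‖ ≤ ‖w‖ + ‖(a + D) • u‖ := norm_add_le _ _
      _ = 1 + |a + D| := by rw [hw, norm_smul, hu, mul_one, Real.norm_eq_abs]
  have hDY : D * |Y| ≤ ‖v‖ * (1 + |a + D|) := by
    have h3 := abs_real_inner_le_norm v (w + (a + D) • u)
    rw [hvd, abs_mul, abs_of_pos hD] at h3
    exact le_trans h3 (mul_le_mul_of_nonneg_left hdn (norm_nonneg v))
  have hA1 : 0 < 1 + |a| := by positivity
  have hA2 : 0 < 1 + |a + D| := by positivity
  have hYabs : |Y| ≤ 1 := by
    have := abs_real_inner_le_norm ξ1 u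
    rw [hξ1, hu] at this
    linarith
  have hM : 0 < R + η := by
    by_contra hcon
    rw [not_lt] at hcon
    have : |Y| * ((R + η) * (1 + |a|)) ≤ 0 :=
      mul_nonpos_of_nonneg_of_nonpos (abs_nonneg Y) (mul_nonpos_of_nonpos_of_nonneg hcon hA1.le)
    linarith
  have hden : 0 < 2 * (R + η) * (1 + |a|) * (1 + |a + D|) := by positivity
  have hB : ρ * D / (2 * (R + η) * (1 + |a|) * (1 + |a + D|)) ≤ ‖v‖ := by
    rw [div_le_iff₀ hden]
    have h4 : ρ * D ≤ 2 * (|Y| * ((R + η) * (1 + |a|))) * D := by nlinarith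
    have h5 : 2 * (|Y| * ((R + η) * (1 + |a|))) * D
        = 2 * ((R + η) * (1 + |a|)) * (D * |Y|) := by ring
    have h6 : 2 * ((R + η) * (1 + |a|)) * (D * |Y|)
        ≤ 2 * ((R + η) * (1 + |a|)) * (‖v‖ * (1 + |a + D|)) :=
      mul_le_mul_of_nonneg_left hDY (by positivity)
    nlinarith
  have hB0 : 0 ≤ ρ * D / (2 * (R + η) * (1 + |a|) * (1 + |a + D|)) := by positivity
  rw [← hvsq]
  exact pow_le_pow_left₀ hB0 hB 2

end Vale.Agent.H7.GenK
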