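import Mathlib

/-!
P243, general convex bodies (helper15's proof, thread P243 #2414): the PLANAR LEMMA.
Pure real analysis on an interval J = [-r', r]: a concave top function Zp and a convex bottom
function Zm with Zp 0 = L, Zm 0 = 0, whose difference f = Zp - Zm is within eta/2 of the cone
function on [0, r] and at most L + eta/2 on J.  Then either the top has two upper support lines
through the point (0, L + eta) with slopes a and a + D, or the bottom has two lower support lines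
through (0, -eta) with slopes c and c - D, where a = (Zp r - L)/r, c = Zm r/r,
D = (L - eta/2)/(2 r).
-/

namespace Vale.Agent.H7.GenK

/-- chord bound on the right of 0 for the concave top. -/
theorem planar_top_right (r' r L : ℝ) (Zp : ℝ → ℝ) (hr : 0 < r) (hr' : 0 ≤ r')
    (hZp : ConcaveOn ℝ (Set.Icc (-r') r) Zp) (hZp0 : Zp 0 = L)
    (t : ℝ) (ht0 : 0 ≤ t) (htr : t ≤ r) :
    L + (Zp r - L) / r * t ≤ Zp t := by
  have h0 : (0:ℝ) ∈ Set.Icc (-r') r := ⟨by linarith, hr.le⟩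
  have hrm : r ∈ Set.Icc (-r') r := ⟨by linarith, le_refl r⟩
  have hq0 : 0 ≤ t / r := div_nonneg ht0 hr.le
  have hq1 : t / r ≤ 1 := by rw [div_le_one hr]; exact htr
  have h := hZp.2 h0 hrm (by linarith : (0:ℝ) ≤ 1 - t / r) hq0 (by ring)
  have hpt : (1 - t / r) • (0:ℝ) + (t / r) • r = t := by
    simp only [smul_eq_mul]; field_simp; ring
  rw [hpt, hZp0] at h
  simp only [smul_eq_mul] at h
  have e : L + (Zp r - L) / r * t = (1 - t / r) * L + t / r * Zp r := by field_simp; ring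
  rw [e]; exact h

/-- chord bound on the left of 0 for the concave top. -/
theorem planar_top_left (r' r L : ℝ) (Zp : ℝ → ℝ) (hr : 0 < r)
    (hZp : ConcaveOn ℝ (Set.Icc (-r') r) Zp) (hZp0 : Zp 0 = L)
    (t : ℝ) (ht : t ∈ Set.Icc (-r') r) (ht0 : t ≤ 0) :
    Zp t ≤ L + (Zp r - L) / r * t := by
  have hrm : r ∈ Set.Icc (-r') r := ⟨by linarith [ht.1], le_refl r⟩
  have hd : 0 < r - t := by linarith
  have h := hZp.2 ht hrm (div_nonneg hr.le hd.le : (0:ℝ) ≤ r / (r - t))
    (div_nonneg (by linarith) hd.le : (0:ℝ) ≤ -t / (r - t)) (by field_simp; ring)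
  have hpt : (r / (r - t)) • t + (-t / (r - t)) • r = 0 := by
    simp only [smul_eq_mul]; field_simp; ring
  rw [hpt, hZp0] at h
  simp only [smul_eq_mul] at h
  have h2 : r * Zp t - t * Zp r ≤ L * (r - t) := by
    have := mul_le_mul_of_nonneg_right h hd.le
    have e : (r / (r - t) * Zp t + -t / (r - t) * Zp r) * (r - t) = r * Zp t - t * Zp r := by
      field_simp; ring
    rw [e] at this; exact this
  have e2 : L + (Zp r - L) / r * t = (L * (r - t) + t * Zp r) / r := by field_simp; ring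
  rw [e2, le_div_iff₀ hr]
  linarith

/-- the PLANAR LEMMA. -/
theorem planar_lemma (r' r L η : ℝ) (Zp Zm : ℝ → ℝ)
    (hr : 0 < r) (hr' : 0 ≤ r') (hη : 0 < η) (hηL : η ≤ L)
    (hZp : ConcaveOn ℝ (Set.Icc (-r') r) Zp) (hZm : ConvexOn ℝ (Set.Icc (-r') r) Zm)
    (hle : Zm r ≤ Zp r) (hZm0 : Zm 0 = 0) (hZp0 : Zp 0 = L)
    (H1 : ∀ t ∈ Set.Icc (0:ℝ) r, Zp t - Zm t ≤ L * (1 - t / r) + η / 2)
    (H2 : ∀ t ∈ Set.Icc (-r') r, Zp t - Zm t ≤ L + η / 2) :
    (∀ t ∈ Set.Icc (-r') r, Zp t ≤ L + η + (Zp r - L) / r * t ∧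
        Zp t ≤ L + η + ((Zp r - L) / r + (L - η / 2) / (2 * r)) * t) ∨
    (∀ t ∈ Set.Icc (-r') r, -η + Zm r / r * t ≤ Zm t ∧
        -η + (Zm r / r - (L - η / 2) / (2 * r)) * t ≤ Zm t) := by
  -- the bottom as a concave function: Wp = -Zm, value 0 at 0
  have hWp : ConcaveOn ℝ (Set.Icc (-r') r) (fun t => -Zm t) := hZm.neg
  have hW0 : (fun t => -Zm t) 0 = 0 := by simp [hZm0]
  set a : ℝ := (Zp r - L) / r with ha
  set c : ℝ := Zm r / r with hc
  set D : ℝ := (L - η / 2) / (2 * r) with hD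
  have har : a * r = Zp r - L := by rw [ha]; field_simp
  have hcr : c * r = Zm r := by rw [hc]; field_simp
  have hDr : D * (2 * r) = L - η / 2 := by rw [hD]; field_simp
  have hDpos : 0 < D := by rw [hD]; apply div_pos <;> linarith
  have hrm : r ∈ Set.Icc (-r') r := ⟨by linarith, le_refl r⟩
  -- P1..P4
  have P1 : ∀ t, 0 ≤ t → t ≤ r → L + a * t ≤ Zp t := fun t h0 h1 =>
    planar_top_right r' r L Zp hr hr' hZp hZp0 t h0 h1
  have P3 : ∀ t ∈ Set.Icc (-r') r, t ≤ 0 → Zp t ≤ L + a * t := fun t ht h0 =>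
    planar_top_left r' r L Zp hr hZp hZp0 t ht h0
  have P2 : ∀ t, 0 ≤ t → t ≤ r → Zm t ≤ c * t := by
    intro t h0 h1
    have h := planar_top_right r' r 0 (fun t => -Zm t) hr hr' hWp hW0 t h0 h1
    beta_reduce at h
    have e : (0:ℝ) + (-Zm r - 0) / r * t = -(c * t) := by rw [hc]; ring
    rw [e] at h; linarith
  have P4 : ∀ t ∈ Set.Icc (-r') r, t ≤ 0 → c * t ≤ Zm t := by
    intro t ht h0
    have h := planar_top_left r' r 0 (fun t => -Zm t) hr hWp hW0 t ht h0
    beta_reduce at h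
    have e : (0:ℝ) + (-Zm r - 0) / r * t = -(c * t) := by rw [hc]; ring
    rw [e] at h; linarith
  -- f(r) <= eta/2
  have hfr : Zp r - Zm r ≤ η / 2 := by
    have h := H1 r ⟨hr.le, le_refl r⟩
    have e : L * (1 - r / r) = 0 := by rw [div_self hr.ne']; ring
    rw [e] at h; linarith
  -- c - a >= 2 D
  have P6 : 2 * D ≤ c - a := by
    have h : (2 * D) * r ≤ (c - a) * r := by nlinarith
    exact le_of_mul_le_mul_right h hr
  -- P5: on [0, r]
  have P5 : ∀ t, 0 ≤ t → t ≤ r → Zp t ≤ L + a * t + η / 2 ∧ c * t - η / 2 ≤ Zm t := by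
    intro t h0 h1
    have h := H1 t ⟨h0, h1⟩
    have p1 := P1 t h0 h1
    have p2 := P2 t h0 h1
    set q : ℝ := t / r with hq
    have hq0 : 0 ≤ q := div_nonneg h0 hr.le
    have hqr : q * r = t := by rw [hq]; field_simp
    have e1 : L * (1 - q) = L - L * q := by ring
    rw [e1] at h
    have e2 : c * t - L * q - a * t = q * (Zm r - Zp r) := by
      rw [← hqr]
      have : c * (q * r) - L * q - a * (q * r) = q * (c * r - L - a * r) := by ring
      rw [this, hcr, har]; ring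
    have h3 : q * (Zm r - Zp r) ≤ 0 := mul_nonpos_of_nonneg_of_nonpos hq0 (by linarith)
    constructor <;> linarith
  -- first inequalities
  have F1 : ∀ t ∈ Set.Icc (-r') r, Zp t ≤ L + η + a * t := by
    intro t ht
    rcases le_total 0 t with h0 | h0
    · have := (P5 t h0 ht.2).1; linarith
    · have := P3 t ht h0; linarith
  have F2 : ∀ t ∈ Set.Icc (-r') r, -η + c * t ≤ Zm t := by
    intro t ht
    rcases le_total 0 t with h0 | h0
    · have := (P5 t h0 ht.2).2; linarith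
    · have := P4 t ht h0; linarith
  by_contra hcon
  rw [not_or] at hcon
  obtain ⟨hA, hB⟩ := hcon
  rw [not_forall] at hA hB
  obtain ⟨t1, hA⟩ := hA
  obtain ⟨t2, hB⟩ := hB
  rw [Classical.not_imp] at hA hB
  obtain ⟨ht1, hA⟩ := hA
  obtain ⟨ht2, hB⟩ := hB
  have h1 : L + η + (a + D) * t1 < Zp t1 := by
    by_contra hh
    exact hA ⟨F1 t1 ht1, not_lt.mp hh⟩
  have h2 : Zm t2 < -η + (c - D) * t2 := by
    by_contra hh
    exact hB ⟨F2 t2 ht2, not_lt.mp hh⟩
  have ht1neg : t1 < 0 := by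
    by_contra hh
    have h0 : 0 ≤ t1 := not_lt.mp hh
    have := (P5 t1 h0 ht1.2).1
    have : 0 ≤ D * t1 := mul_nonneg hDpos.le h0
    nlinarith
  have ht2neg : t2 < 0 := by
    by_contra hh
    have h0 : 0 ≤ t2 := not_lt.mp hh
    have := (P5 t2 h0 ht2.2).2
    have : 0 ≤ D * t2 := mul_nonneg hDpos.le h0
    nlinarith
  have h0m : (0:ℝ) ∈ Set.Icc (-r') r := ⟨by linarith, hr.le⟩
  rcases le_total t2 t1 with h21 | h12
  · -- evaluate at t1, between t2 and 0
    set μ : ℝ := t1 / t2 with hμ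
    have hμ0 : 0 ≤ μ := div_nonneg_of_nonpos ht1neg.le ht2neg.le
    have hμ1 : μ ≤ 1 := by
      rw [hμ, div_le_one_of_neg ht2neg]; exact h21
    have hμt : μ * t2 = t1 := by rw [hμ]; exact div_mul_cancel₀ t1 ht2neg.ne
    have hcv := hZm.2 ht2 h0m hμ0 (by linarith : 0 ≤ 1 - μ) (by ring)
    have hpt : μ • t2 + (1 - μ) • (0:ℝ) = t1 := by
      simp only [smul_eq_mul]; rw [hμt]; ring
    rw [hpt, hZm0] at hcv
    simp only [smul_eq_mul, mul_zero, add_zero] at hcv
    have h3 : μ * Zm t2 ≤ μ * (-η + (c - D) * t2) := mul_le_mul_of_nonneg_left h2.le hμ0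
    have e3 : μ * (-η + (c - D) * t2) = -(η * μ) + (c - D) * t1 := by rw [← hμt]; ring
    rw [e3] at h3
    have h4 : 0 ≤ η * μ := mul_nonneg hη.le hμ0
    have h5 : 0 ≤ (a - c + 2 * D) * t1 := mul_nonneg_of_nonpos_of_nonpos (by linarith) ht1neg.le
    have := H2 t1 ht1
    nlinarith
  · -- evaluate at t2, between t1 and 0
    set μ : ℝ := t2 / t1 with hμ
    have hμ0 : 0 ≤ μ := div_nonneg_of_nonpos ht2neg.le ht1neg.le
    have hμ1 : μ ≤ 1 := by
      rw [hμ, div_le_one_of_neg ht1neg]; exact h12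
    have hμt : μ * t1 = t2 := by rw [hμ]; exact div_mul_cancel₀ t2 ht1neg.ne
    have hcv := hZp.2 ht1 h0m hμ0 (by linarith : 0 ≤ 1 - μ) (by ring)
    have hpt : μ • t1 + (1 - μ) • (0:ℝ) = t2 := by
      simp only [smul_eq_mul]; rw [hμt]; ring
    rw [hpt, hZp0] at hcv
    simp only [smul_eq_mul] at hcv
    have h3 : μ * (L + η + (a + D) * t1) ≤ μ * Zp t1 := mul_le_mul_of_nonneg_left h1.le hμ0
    have e3 : μ * (L + η + (a + D) * t1) = μ * L + η * μ + (a + D) * t2 := by rw [← hμt]; ring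
    rw [e3] at h3
    have h4 : 0 ≤ η * μ := mul_nonneg hη.le hμ0
    have h5 : 0 ≤ (a - c + 2 * D) * t2 := mul_nonneg_of_nonpos_of_nonpos (by linarith) ht2neg.le
    have := H2 t2 ht2
    nlinarith

end Vale.Agent.H7.GenK
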