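import Vale.Agent.H5.P243.Scale

/-!
P243, general convex bodies: affine invariance of the directionwise relative areas.

For an invertible linear map T of Euclidean 3-space, a translation vector b and a unit vector u,
put u' = T u / |T u|.  The shadow along u' of the affine image of ANY set A has area
kappa * area(shadow of A along u), with a constant kappa (neither 0 nor infinite) depending only on
T and u (`affine_shadow_scaling`).  Hence a cylinder covering of K is transported to a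
cylinder covering of the affine image of K with the same relative areas
(`cover_affine_transfer`).
-/

open MeasureTheory Set Module
open scoped ENNReal

namespace Vale.Agent.H7.GenK

open Vale.Agent.H5.P243

/-- A unit vector has an orthonormal complement `v, w`. -/
theorem exists_frame (u : E3) (hu : ‖u‖ = 1) :
    ∃ v w : E3, LinearIndependent ℝ ![v, w, u] ∧ inner ℝ v u = 0 ∧ inner ℝ w u = 0 ∧
      ∀ x : E3, x - inner ℝ x u • u = inner ℝ v x • v + inner ℝ w x • w := by
  have hcard : finrank ℝ E3 = Fintype.card (Fin 3) := by simp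
  have hv : Orthonormal ℝ (({2} : Set (Fin 3)).domRestrict (fun _ : Fin 3 => u)) := by
    rw [orthonormal_iff_ite]
    rintro ⟨i, hi⟩ ⟨j, hj⟩
    have hi' : i = 2 := hi
    have hj' : j = 2 := hj
    subst hi' hj'
    simp [hu]
  obtain ⟨bb, hbb⟩ := hv.exists_orthonormalBasis_extension_of_card_eq hcard
  have h2 : bb 2 = u := hbb 2 rfl
  have hfun : (![bb 0, bb 1, u] : Fin 3 → E3) = ⇑bb := by
    funext i
    fin_cases i
    · rfl
    · rfl
    · exact h2.symm
  refine ⟨bb 0, bb 1, ?_, ?_, ?_, ?_⟩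
  · rw [hfun]
    have h := bb.toBasis.linearIndependent
    rwa [bb.coe_toBasis] at h
  · rw [← h2]
    exact bb.orthonormal.2 (by decide)
  · rw [← h2]
    exact bb.orthonormal.2 (by decide)
  · intro x
    have hs := bb.sum_repr' x
    rw [Fin.sum_univ_three, h2] at hs
    have e : inner ℝ x u = inner ℝ u x := real_inner_comm _ _
    rw [e, sub_eq_iff_eq_add]
    exact hs.symm

/-- The orthogonal projection along a unit vector fixes vectors orthogonal to it. -/
theorem proj_of_orth (u y : E3) (hy : inner ℝ y u = 0) : y - inner ℝ y u • u = y := by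
  rw [hy, zero_smul, sub_zero]

/-- **Affine invariance of shadow areas, up to a constant depending on the direction only.** -/
theorem affine_shadow_scaling (T : E3 ≃L[ℝ] E3) (b u : E3) (hu : ‖u‖ = 1) :
    ∃ κ : ℝ≥0∞, κ ≠ 0 ∧ κ ≠ ⊤ ∧ ∀ A : Set E3,
      μHE[2] (shadow ((‖T u‖)⁻¹ • T u) ((fun x => T x + b) '' A)) = κ * μHE[2] (shadow u A) := by
  classical
  obtain ⟨v, w, hli, hvu, hwu, hdec⟩ := exists_frame u hu
  have hu0 : u ≠ 0 := by
    rintro rfl
    simp at hu
  have hTu0 : T u ≠ 0 := fun h => hu0 (by simpa using h)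
  have hn : ‖T u‖ ≠ 0 := norm_ne_zero_iff.mpr hTu0
  set u' : E3 := (‖T u‖)⁻¹ • T u with hu'def
  have hu' : ‖u'‖ = 1 := by
    rw [hu'def, norm_smul, norm_inv, norm_norm, inv_mul_cancel₀ hn]
  have hTu' : ∃ nT : ℝ, T u = nT • u' :=
    ⟨‖T u‖, by rw [hu'def, smul_smul, mul_inv_cancel₀ hn, one_smul]⟩
  obtain ⟨nT, hTu⟩ := hTu'
  -- linear independence of the image frame
  have hli2 : LinearIndependent ℝ ![T v, T w, u'] := by
    have h1 : LinearIndependent ℝ ((T : E3 →ₗ[ℝ] E3) ∘ ![v, w, u]) :=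
      hli.map' (T : E3 →ₗ[ℝ] E3) (LinearMap.ker_eq_bot.mpr T.injective)
    have h2 := h1.units_smul ![1, 1, Units.mk0 (‖T u‖)⁻¹ (inv_ne_zero hn)]
    have e : (![1, 1, Units.mk0 (‖T u‖)⁻¹ (inv_ne_zero hn)] : Fin 3 → ℝˣ) •
        ((T : E3 →ₗ[ℝ] E3) ∘ ![v, w, u]) = ![T v, T w, u'] := by
      funext i
      fin_cases i
      · simp
      · simp
      · simp [hu'def, Units.smul_def]
    rw [e] at h2
    exact h2
  obtain ⟨c1, hc10, hc1t, hc1⟩ := shadow_scaling u v w hu hli
  obtain ⟨c2, hc20, hc2t, hc2⟩ := shadow_scaling u' (T v) (T w) hu' hli2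
  refine ⟨c2 / c1, ?_, ENNReal.div_ne_top hc2t hc10, ?_⟩
  · rw [ENNReal.div_ne_zero]
    exact ⟨hc20, hc1t⟩
  intro A
  set A0 : Set (ℝ × ℝ) := (fun x : E3 => (inner ℝ v x, inner ℝ w x)) '' A with hA0
  -- the shadow of A is a chart image of A0
  have hS1 : shadow u A = shadow u (chart 0 v w '' A0) := by
    unfold shadow
    rw [hA0, image_image, image_image]
    apply image_congr
    intro x _
    have hy : inner ℝ (chart 0 v w (inner ℝ v x, inner ℝ w x)) u = 0 := by
      unfold chart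
      simp [inner_add_left, inner_smul_left, hvu, hwu]
    rw [proj_of_orth u _ hy, hdec x]
    unfold chart
    simp
  have hS2 : shadow u' ((fun x => T x + b) '' A) = shadow u' (chart b (T v) (T w) '' A0) := by
    unfold shadow
    rw [hA0, image_image, image_image, image_image]
    apply image_congr
    intro x _
    have hx : x = inner ℝ v x • v + inner ℝ w x • w + inner ℝ x u • u := by
      have := hdec x
      rw [← this]
      abel
    have hTx : T x + b = chart b (T v) (T w) (inner ℝ v x, inner ℝ w x)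
        + (inner ℝ x u * nT) • u' := by
      unfold chart
      conv_lhs => rw [hx]
      rw [map_add, map_add, map_smul, map_smul, map_smul, hTu, smul_smul]
      abel
    show T x + b - inner ℝ (T x + b) u' • u' = _
    rw [hTx]
    exact proj_add_smul u' hu' _ _
  rw [hS1, hS2, hc1, hc2, ← mul_assoc, ENNReal.div_mul_cancel hc10 hc1t]

/-- **Transport of a cylinder covering under an affine bijection, with the same relative areas.** -/
theorem cover_affine_transfer (m : ℕ) (K : Set E3)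
    (u : Fin m → E3) (hu : ∀ i, ‖u i‖ = 1)
    (B : Fin m → Set E3) (hB : ∀ i, ∀ x ∈ B i, inner ℝ x (u i) = 0)
    (hcov : K ⊆ ⋃ i, {x | ∃ b ∈ B i, ∃ t : ℝ, x = b + t • u i})
    (T : E3 ≃L[ℝ] E3) (b : E3) :
    ∃ (u' : Fin m → E3) (B' : Fin m → Set E3), (∀ i, ‖u' i‖ = 1) ∧
      (∀ i, ∀ x ∈ B' i, inner ℝ x (u' i) = 0) ∧
      ((fun x => T x + b) '' K ⊆ ⋃ i, {x | ∃ b' ∈ B' i, ∃ t : ℝ, x = b' + t • u' i}) ∧
      ∀ i, μHE[2] (B' i) /
            μHE[2] ((fun x => x - inner ℝ x (u' i) • u' i) '' ((fun x => T x + b) '' K))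
          = μHE[2] (B i) / μHE[2] ((fun x => x - inner ℝ x (u i) • u i) '' K) := by
  have hu0 : ∀ i, u i ≠ 0 := by
    intro i h
    have := hu i
    rw [h] at this
    simp at this
  have hn : ∀ i, ‖T (u i)‖ ≠ 0 := fun i =>
    norm_ne_zero_iff.mpr (fun h => hu0 i (by simpa using h))
  have hu' : ∀ i, ‖(‖T (u i)‖)⁻¹ • T (u i)‖ = 1 := by
    intro i
    rw [norm_smul, norm_inv, norm_norm, inv_mul_cancel₀ (hn i)]
  refine ⟨fun i => (‖T (u i)‖)⁻¹ • T (u i),
    fun i => shadow ((‖T (u i)‖)⁻¹ • T (u i)) ((fun x => T x + b) '' B i), hu', ?_, ?_, ?_⟩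
  · rintro i x ⟨y, _, rfl⟩
    show inner ℝ (y - inner ℝ y ((‖T (u i)‖)⁻¹ • T (u i)) • ((‖T (u i)‖)⁻¹ • T (u i)))
      ((‖T (u i)‖)⁻¹ • T (u i)) = 0
    rw [inner_sub_left, inner_smul_left, real_inner_self_eq_norm_sq, hu' i]
    simp
  · rintro _ ⟨x, hx, rfl⟩
    obtain ⟨i, hi⟩ := mem_iUnion.mp (hcov hx)
    obtain ⟨b0, hb0, t, rfl⟩ := hi
    refine mem_iUnion.mpr ⟨i, ?_⟩
    set w : E3 := (‖T (u i)‖)⁻¹ • T (u i) with hw
    have hTu' : ∃ nT : ℝ, T (u i) = nT • w :=
      ⟨‖T (u i)‖, by rw [hw, smul_smul, mul_inv_cancel₀ (hn i), one_smul]⟩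
    obtain ⟨nT, hTu⟩ := hTu'
    refine ⟨(T b0 + b) - inner ℝ (T b0 + b) w • w, ⟨T b0 + b, ⟨b0, hb0, rfl⟩, rfl⟩,
      inner ℝ (T b0 + b) w + t * nT, ?_⟩
    show T (b0 + t • u i) + b = _
    rw [map_add, map_smul, hTu, smul_smul, add_smul]
    abel
  · intro i
    obtain ⟨κ, hκ0, hκt, hκ⟩ := affine_shadow_scaling T b (u i) (hu i)
    have h1 : shadow (u i) (B i) = B i := by
      unfold shadow
      have : ∀ x ∈ B i, (fun x => x - inner ℝ x (u i) • u i) x = id x := by
        intro x hx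
        show x - inner ℝ x (u i) • u i = x
        exact proj_of_orth (u i) x (hB i x hx)
      rw [image_congr this, image_id]
    have e1 : μHE[2] (shadow ((‖T (u i)‖)⁻¹ • T (u i)) ((fun x => T x + b) '' B i))
        = κ * μHE[2] (B i) := by
      rw [hκ (B i), h1]
    have e2 : μHE[2] ((fun x => x - inner ℝ x ((‖T (u i)‖)⁻¹ • T (u i)) •
          ((‖T (u i)‖)⁻¹ • T (u i))) '' ((fun x => T x + b) '' K))
        = κ * μHE[2] ((fun x => x - inner ℝ x (u i) • u i) '' K) := hκ K
    rw [e1, e2]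
    exact ENNReal.mul_div_mul_left _ _ hκ0 hκt

end Vale.Agent.H7.GenK
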